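import Vale.Agent.P176.Final

open CategoryTheory

universe u

theorem Vale.Agent.Results.P176.Counterexample.result (K : Type u) [Field K] [CharZero K] :
    ∃ (A : Type u) (_ : Ring A) (_ : Algebra K A), FiniteDimensional K A ∧
      (∀ N : ℕ, ∃ (M : ModuleCat.{u} A) (n : ℕ),
        Module.Finite A M ∧ N ≤ n ∧ projectiveDimension M = n) ∧
      (⨆ (M : ModuleCat.{u} A) (_ : Module.Finite A M) (_ : projectiveDimension M ≠ ⊤),
        projectiveDimension M) = ⊤ := by
  have key : ∀ N : ℕ, ∃ (M : ModuleCat.{u} (Vale.Agent.P176.AA K)) (n : ℕ),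
      Module.Finite (Vale.Agent.P176.AA K) M ∧ N ≤ n ∧ projectiveDimension M = n := by
    intro N
    obtain ⟨⟨q, hq⟩, h2⟩ := Vale.Agent.P176.main (K := K) N
    have h3 := projectiveDimension_lt_iff.2 hq
    have h4 := (projectiveDimension_ge_iff _ _).2 h2
    refine ⟨_, ?_, Vale.Agent.P176.main_finite (N + 1), ?_⟩
    · exact ((projectiveDimension (Vale.Agent.P176.WinM (Vale.Agent.P176.infl
        (Vale.Agent.P176.LL K (N + 1))))).unbotD 0).toNat
    · generalize projectiveDimension (Vale.Agent.P176.WinM (Vale.Agent.P176.infl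
        (Vale.Agent.P176.LL K (N + 1)))) = d at h3 h4
      induction d with
      | bot => exact absurd h4 (not_le.2 (WithBot.bot_lt_coe _))
      | coe d =>
        induction d with
        | top => exact absurd h3 (not_lt.2 le_top)
        | coe d =>
          refine ⟨?_, rfl⟩
          have h5 : ((N + 4 : ℕ) : ℕ∞) ≤ (d : ℕ∞) := WithBot.coe_le_coe.1 h4
          have h6 : N + 4 ≤ d := by exact_mod_cast h5
          simp only [WithBot.unbotD_coe, ENat.toNat_coe]
          omega
  refine ⟨Vale.Agent.P176.AA K, inferInstance, inferInstance, Vale.Agent.P176.fin_AA, key, ?_⟩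
  have hle : ∀ N : ℕ, (N : WithBot ℕ∞) ≤ ⨆ (M : ModuleCat.{u} (Vale.Agent.P176.AA K))
      (_ : Module.Finite (Vale.Agent.P176.AA K) M) (_ : projectiveDimension M ≠ ⊤),
      projectiveDimension M := by
    intro N
    obtain ⟨M, n, h1, h2, h3⟩ := key N
    have h4 : projectiveDimension M ≠ ⊤ := by
      rw [h3]
      exact fun h => ENat.coe_ne_top n (WithBot.coe_eq_coe.1 h)
    refine le_trans ?_ (le_iSup₂_of_le M h1 (le_iSup_of_le h4 le_rfl))
    rw [h3]
    exact_mod_cast h2
  generalize (⨆ (M : ModuleCat.{u} (Vale.Agent.P176.AA K))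
      (_ : Module.Finite (Vale.Agent.P176.AA K) M) (_ : projectiveDimension M ≠ ⊤),
      projectiveDimension M) = d at hle
  induction d with
  | bot => exact absurd (hle 0) (not_le.2 (WithBot.bot_lt_coe _))
  | coe d =>
    induction d with
    | top => rfl
    | coe d =>
      have h5 : ((d + 1 : ℕ) : ℕ∞) ≤ (d : ℕ∞) := WithBot.coe_le_coe.1 (hle (d + 1))
      have h6 : d + 1 ≤ d := by exact_mod_cast h5
      omega
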